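import Vale.Agent.P034.Main

namespace Vale.Agent.Results.P034.Talagrand

/-- `G` covers `F`: every member of `F` contains a member of `G`. -/
def Covers {X : Type} (G : Finset (Finset X)) (F : Set (Finset X)) : Prop :=
  ∀ H ∈ F, ∃ S ∈ G, S ⊆ H

/-- `g` is a fractional cover of `F`. -/
def IsFracCover {X : Type} (g : Finset X → ℝ) (F : Set (Finset X)) : Prop :=
  (∀ S, g S ∈ Set.Icc (0 : ℝ) 1) ∧ ∀ H ∈ F, 1 ≤ ∑ S ∈ H.powerset, g S

/-- The (integral) expectation threshold `q(F)`. -/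
noncomputable def q {X : Type} (F : Set (Finset X)) : ℝ :=
  sSup {p : ℝ | p ∈ Set.Icc (0 : ℝ) 1 ∧
    ∃ G : Finset (Finset X), Covers G F ∧ ∑ S ∈ G, p ^ S.card ≤ 1 / 2}

/-- The fractional expectation threshold `q_f(F)`. -/
noncomputable def qf {X : Type} [Fintype X] (F : Set (Finset X)) : ℝ :=
  sSup {p : ℝ | p ∈ Set.Icc (0 : ℝ) 1 ∧
    ∃ g : Finset X → ℝ, IsFracCover g F ∧ ∑ S : Finset X, g S * p ^ S.card ≤ 1 / 2}

/-- Talagrand's conjecture: `q_f ≤ K q` with a universal constant `K`. -/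
theorem result : ∃ K : ℝ, ∀ (X : Type) [Fintype X] [Nonempty X] (F : Set (Finset X)),
    IsUpperSet F → F.Nonempty → ∅ ∉ F → qf F ≤ K * q F := by
  refine ⟨147456, fun X _ _ F _ _ _ => ?_⟩
  classical
  have h0 : 0 ≤ q F := Real.sSup_nonneg fun p hp => hp.1.1
  refine Real.sSup_le ?_ (by positivity)
  rintro r ⟨⟨-, hr⟩, g, ⟨hg, hgF⟩, hw⟩
  by_contra h
  have h1 : q F < r / 147456 := by linarith
  have h2 := Vale.Agent.P034.main F (p := r / 147456) (h0.trans_lt h1) (fun G hG => by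
    by_contra h3
    refine absurd (le_csSup ⟨1, fun p hp => hp.1.2⟩ ?_ : r / 147456 ≤ q F) (not_le.2 h1)
    exact ⟨⟨(h0.trans_lt h1).le, by linarith⟩, G, hG, not_lt.1 h3⟩)
    g (fun S => (hg S).1) hgF
  rw [show 147456 * (r / 147456) = r by ring] at h2
  linarith

end Vale.Agent.Results.P034.Talagrand
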